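import Mathlib

namespace Vale.Agent.Lib.P252.H28

open Matrix Finset

/-- `H28_pd i u x` is the derivative of `u` at `x` in the direction of the `i`-th
coordinate vector, that is `∂_i u (x)`. -/
noncomputable def H28_pd {n : ℕ} (i : Fin n) (u : (Fin n → ℝ) → ℝ) (x : Fin n → ℝ) : ℝ :=
  fderiv ℝ u x (Pi.single i 1)

/-- The Hessian matrix `D²u (x)`, with entries `∂_j ∂_i u (x)`. -/
noncomputable def H28_hess {n : ℕ} (u : (Fin n → ℝ) → ℝ) (x : Fin n → ℝ) :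
    Matrix (Fin n) (Fin n) ℝ :=
  Matrix.of fun i j => H28_pd j (H28_pd i u) x

/-- The function `w = (det D²u)^(-(n+1)/(n+2))`. -/
noncomputable def H28_w {n : ℕ} (u : (Fin n → ℝ) → ℝ) (x : Fin n → ℝ) : ℝ :=
  (H28_hess u x).det ^ (-((n : ℝ) + 1) / ((n : ℝ) + 2))

/-- The left side of the affine maximal equation at `x`:
`∑_{i,j} U^{ij} ∂_{ij} w` with `U = det(D²u) (D²u)⁻¹`. -/
noncomputable def H28_AM {n : ℕ} (u : (Fin n → ℝ) → ℝ) (x : Fin n → ℝ) : ℝ :=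
  ∑ i, ∑ j, ((H28_hess u x).det • (H28_hess u x)⁻¹) i j * H28_hess (H28_w u) x i j

/-- The function `(det D²u)^a` for a real exponent `a`. -/
noncomputable def H28_wexp {n : ℕ} (a : ℝ) (u : (Fin n → ℝ) → ℝ) (x : Fin n → ℝ) : ℝ :=
  (H28_hess u x).det ^ a

/-- The left side of the affine-maximal-type equation with exponent `a` at `x`:
`∑_{i,j} U^{ij} ∂_{ij} ((det D²u)^a)` with `U = det(D²u) (D²u)⁻¹`. -/
noncomputable def H28_AMexp {n : ℕ} (a : ℝ) (u : (Fin n → ℝ) → ℝ) (x : Fin n → ℝ) : ℝ :=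
  ∑ i, ∑ j, ((H28_hess u x).det • (H28_hess u x)⁻¹) i j * H28_hess (H28_wexp a u) x i j

theorem H28_AM_eq_AMexp {n : ℕ} (u : (Fin n → ℝ) → ℝ) (x : Fin n → ℝ) :
    H28_AM u x = H28_AMexp (-((n : ℝ) + 1) / ((n : ℝ) + 2)) u x := rfl

end Vale.Agent.Lib.P252.H28
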