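import Mathlib
import Vale.Agent.Lib.P252.H28.Defs

namespace Vale.Agent.Lib.P252.H28

open Matrix Finset

theorem H28_hasFDerivAt_coord {n : ℕ} (g : ℝ → ℝ) (hg : Differentiable ℝ g) (i : Fin n)
    (x : Fin n → ℝ) :
    HasFDerivAt (fun y : Fin n → ℝ => g (y i))
      (deriv g (x i) • (ContinuousLinearMap.proj i : (Fin n → ℝ) →L[ℝ] ℝ)) x := by
  have h1 : HasDerivAt g (deriv g (x i)) (x i) := (hg (x i)).hasDerivAt
  have h2 : HasFDerivAt (fun y : Fin n → ℝ => y i)
      (ContinuousLinearMap.proj i : (Fin n → ℝ) →L[ℝ] ℝ) x :=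
    (ContinuousLinearMap.proj i : (Fin n → ℝ) →L[ℝ] ℝ).hasFDerivAt
  exact HasDerivAt.comp_hasFDerivAt (f := fun y : Fin n → ℝ => y i) x h1 h2

theorem H28_pd_coord {n : ℕ} (g : ℝ → ℝ) (hg : Differentiable ℝ g) (i j : Fin n)
    (x : Fin n → ℝ) :
    H28_pd j (fun y => g (y i)) x = if i = j then deriv g (x i) else 0 := by
  unfold H28_pd
  rw [(H28_hasFDerivAt_coord g hg i x).fderiv]
  simp [Pi.single_apply]

theorem H28_pd_sum {n : ℕ} (g : Fin n → ℝ → ℝ) (hg : ∀ i, Differentiable ℝ (g i)) (j : Fin n)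
    (x : Fin n → ℝ) :
    H28_pd j (fun y => ∑ i, g i (y i)) x = deriv (g j) (x j) := by
  have h1 : ∀ i ∈ (univ : Finset (Fin n)), HasFDerivAt (fun y : Fin n → ℝ => g i (y i))
      (deriv (g i) (x i) • (ContinuousLinearMap.proj i : (Fin n → ℝ) →L[ℝ] ℝ)) x :=
    fun i _ => H28_hasFDerivAt_coord (g i) (hg i) i x
  have h2 := HasFDerivAt.sum h1
  have h3 : (fun y : Fin n → ℝ => ∑ i, g i (y i)) = ∑ i, fun y : Fin n → ℝ => g i (y i) := by
    funext y
    simp
  unfold H28_pd
  rw [h3, h2.fderiv]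
  simp [Pi.single_apply]

theorem H28_pd_prod {n : ℕ} (g : Fin n → ℝ → ℝ) (hg : ∀ i, Differentiable ℝ (g i)) (j : Fin n)
    (x : Fin n → ℝ) :
    H28_pd j (fun y => ∏ i, g i (y i)) x
      = deriv (g j) (x j) * ∏ i ∈ univ.erase j, g i (x i) := by
  have h1 : ∀ i ∈ (univ : Finset (Fin n)), HasFDerivAt (fun y : Fin n → ℝ => g i (y i))
      (deriv (g i) (x i) • (ContinuousLinearMap.proj i : (Fin n → ℝ) →L[ℝ] ℝ)) x :=
    fun i _ => H28_hasFDerivAt_coord (g i) (hg i) i x
  have h2 := HasFDerivAt.finsetProd h1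
  unfold H28_pd
  rw [h2.fderiv]
  simp [Pi.single_apply]
  ring

/-- Hessian of a separable function. -/
theorem H28_hess_sep {n : ℕ} (f : Fin n → ℝ → ℝ) (hf : ∀ i, Differentiable ℝ (f i))
    (hf' : ∀ i, Differentiable ℝ (deriv (f i))) (x : Fin n → ℝ) :
    H28_hess (fun y : Fin n → ℝ => ∑ i, f i (y i)) x
      = diagonal (fun i => deriv (deriv (f i)) (x i)) := by
  ext i j
  have h1 : H28_pd i (fun y : Fin n → ℝ => ∑ k, f k (y k)) = fun y => deriv (f i) (y i) :=
    funext (fun y => H28_pd_sum f hf i y)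
  simp only [H28_hess, of_apply]
  rw [h1, H28_pd_coord (deriv (f i)) (hf' i) i j x, diagonal_apply]

/-- Diagonal second derivative of a product of one-variable functions. -/
theorem H28_hess_prod_diag {n : ℕ} (h : Fin n → ℝ → ℝ) (hh : ∀ i, Differentiable ℝ (h i))
    (hh' : ∀ i, Differentiable ℝ (deriv (h i))) (x : Fin n → ℝ) (i : Fin n) :
    H28_hess (fun y : Fin n → ℝ => ∏ k, h k (y k)) x i i
      = deriv (deriv (h i)) (x i) * ∏ k ∈ univ.erase i, h k (x k) := by
  have h1 : H28_pd i (fun y : Fin n → ℝ => ∏ k, h k (y k))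
      = fun y => deriv (h i) (y i) * ∏ k ∈ univ.erase i, h k (y k) :=
    funext (fun y => H28_pd_prod h hh i y)
  have h2 : (fun y : Fin n → ℝ => deriv (h i) (y i) * ∏ k ∈ univ.erase i, h k (y k))
      = fun y => ∏ k, Function.update h i (deriv (h i)) k (y k) := by
    funext y
    rw [← Finset.mul_prod_erase univ _ (mem_univ i)]
    simp only [Function.update_self]
    congr 1
    apply Finset.prod_congr rfl
    intro k hk
    rw [Function.update_of_ne (Finset.ne_of_mem_erase hk)]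
  have hG : ∀ k, Differentiable ℝ (Function.update h i (deriv (h i)) k) := by
    intro k
    by_cases hk : k = i
    · subst hk
      simp only [Function.update_self]
      exact hh' k
    · rw [Function.update_of_ne hk]
      exact hh k
  simp only [H28_hess, of_apply]
  rw [h1, h2, H28_pd_prod _ hG i x]
  simp only [Function.update_self]
  congr 1
  apply Finset.prod_congr rfl
  intro k hk
  rw [Function.update_of_ne (Finset.ne_of_mem_erase hk)]

end Vale.Agent.Lib.P252.H28
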