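import Mathlib
import Vale.Agent.Lib.P252.H28.Defs

namespace Vale.Agent.Lib.P252.H28

open Matrix Finset

/-- A positive function on the whole line with nonpositive second derivative has
vanishing first derivative. -/
theorem H28_deriv_zero_of_pos (h : ℝ → ℝ) (h1 : Differentiable ℝ h)
    (h2 : Differentiable ℝ (deriv h)) (hpos : ∀ t, 0 < h t)
    (hcc : ∀ t, deriv (deriv h) t ≤ 0) : ∀ t, deriv h t = 0 := by
  have hanti : Antitone (deriv h) := antitone_of_deriv_nonpos h2 hcc
  intro a
  by_contra hne
  rcases lt_or_gt_of_ne hne with hlt | hgt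
  · have key : ∀ y, a ≤ y → h y - h a ≤ deriv h a * (y - a) := by
      intro y hy
      refine Convex.image_sub_le_mul_sub_of_deriv_le (convex_Ici a) h1.continuous.continuousOn
        h1.differentiableOn (fun x hx => hanti ?_) a Set.self_mem_Ici y hy hy
      have hx' : x ∈ Set.Ici a := interior_subset hx
      exact hx'
    have hc : 0 < -deriv h a := by linarith
    have hq : 0 ≤ h a / (-deriv h a) := div_nonneg (hpos a).le hc.le
    have hy := key (a + h a / (-deriv h a) + 1) (by linarith)
    have hp := hpos (a + h a / (-deriv h a) + 1)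
    have e1 : deriv h a * (a + h a / (-deriv h a) + 1 - a) = -h a + deriv h a := by
      field_simp
      ring
    rw [e1] at hy
    linarith
  · have key : ∀ x, x ≤ a → deriv h a * (a - x) ≤ h a - h x := by
      intro x hx
      refine Convex.mul_sub_le_image_sub_of_le_deriv (convex_Iic a) h1.continuous.continuousOn
        h1.differentiableOn (fun z hz => hanti ?_) x hx a Set.self_mem_Iic hx
      have hz' : z ∈ Set.Iic a := interior_subset hz
      exact hz'
    have hq : 0 ≤ h a / deriv h a := div_nonneg (hpos a).le hgt.le
    have hy := key (a - h a / deriv h a - 1) (by linarith)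
    have hp := hpos (a - h a / deriv h a - 1)
    have e1 : deriv h a * (a - (a - h a / deriv h a - 1)) = h a + deriv h a := by
      field_simp
      ring
    rw [e1] at hy
    linarith

/-- If a sum of one-variable functions of the separate coordinates vanishes identically,
each summand is constant. -/
theorem H28_sep_const {n : ℕ} (φ : Fin n → ℝ → ℝ)
    (h : ∀ x : Fin n → ℝ, ∑ i, φ i (x i) = 0) (i : Fin n) (t : ℝ) : φ i t = φ i 0 := by
  have h0 := h 0
  have ht := h (Function.update 0 i t)
  rw [← Finset.add_sum_erase univ _ (mem_univ i)] at h0 ht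
  have e : ∑ k ∈ univ.erase i, φ k ((Function.update (0 : Fin n → ℝ) i t) k)
      = ∑ k ∈ univ.erase i, φ k ((0 : Fin n → ℝ) k) := by
    apply Finset.sum_congr rfl
    intro k hk
    rw [Function.update_of_ne (Finset.ne_of_mem_erase hk)]
  rw [e] at ht
  simp only [Function.update_self] at ht
  simp only [Pi.zero_apply] at h0 ht
  linarith

/-- A function with constant second derivative `a` is the quadratic polynomial
`a/2 t² + f'(0) t + f(0)`. -/
theorem H28_quadratic_of_deriv2_const (f : ℝ → ℝ) (h1 : Differentiable ℝ f)
    (h2 : Differentiable ℝ (deriv f)) (a : ℝ) (ha : ∀ t, deriv (deriv f) t = a) (t : ℝ) :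
    f t = a / 2 * t ^ 2 + deriv f 0 * t + f 0 := by
  have hd1 : ∀ s, deriv f s = a * s + deriv f 0 := by
    intro s
    have hder : ∀ r, HasDerivAt (fun r => deriv f r - a * r) (deriv (deriv f) r - a * 1) r :=
      fun r => ((h2 r).hasDerivAt).sub ((hasDerivAt_id r).const_mul a)
    have hdiff : Differentiable ℝ (fun r => deriv f r - a * r) :=
      fun r => (hder r).differentiableAt
    have hz : ∀ r, deriv (fun r => deriv f r - a * r) r = 0 := by
      intro r
      rw [(hder r).deriv, ha r]
      ring
    have := is_const_of_deriv_eq_zero hdiff hz s 0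
    simp only [mul_zero, sub_zero] at this
    linarith
  have hder : ∀ r, HasDerivAt (fun r => f r - (a / 2 * r ^ 2 + deriv f 0 * r))
      (deriv f r - (a / 2 * ((2 : ℕ) * r ^ (2 - 1) * 1) + deriv f 0 * 1)) r :=
    fun r => ((h1 r).hasDerivAt).sub
      ((((hasDerivAt_id r).pow 2).const_mul (a / 2)).add ((hasDerivAt_id r).const_mul (deriv f 0)))
  have hdiff : Differentiable ℝ (fun r => f r - (a / 2 * r ^ 2 + deriv f 0 * r)) :=
    fun r => (hder r).differentiableAt
  have hz : ∀ r, deriv (fun r => f r - (a / 2 * r ^ 2 + deriv f 0 * r)) r = 0 := by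
    intro r
    rw [(hder r).deriv, hd1 r]
    simp
    ring
  have := is_const_of_deriv_eq_zero hdiff hz t 0
  simp at this
  linarith

end Vale.Agent.Lib.P252.H28
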