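import Mathlib
import Vale.Agent.Lib.P252.H28.Defs
import Vale.Agent.Lib.P252.H28.Calc
import Vale.Agent.Lib.P252.H28.Ode

namespace Vale.Agent.Lib.P252.H28

open Matrix Finset

theorem H28_separable_exp (n : ℕ) (a : ℝ) (hθ : a ≠ 0) (f : Fin n → ℝ → ℝ)
    (hf : ∀ i, ContDiff ℝ 4 (f i))
    (hpd : ∀ x, (H28_hess (fun y : Fin n → ℝ => ∑ i, f i (y i)) x).PosDef)
    (hAM : ∀ x, H28_AMexp a (fun y : Fin n → ℝ => ∑ i, f i (y i)) x = 0) :
    ∀ i, ∃ a : ℝ, 0 < a ∧ ∀ t, f i t = a / 2 * t ^ 2 + deriv (f i) 0 * t + f i 0 := by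
  -- regularity of the one-variable functions
  have hf1 : ∀ i, Differentiable ℝ (f i) := fun i => (hf i).differentiable (by norm_num)
  have hd2 : ∀ i, ContDiff ℝ 2 (deriv (deriv (f i))) := by
    intro i
    have h := ContDiff.iterate_deriv' 2 2 (f := f i) (by exact_mod_cast hf i)
    simpa [Function.iterate_succ] using h
  have hf3 : ∀ i, ContDiff ℝ 3 (deriv (f i)) := by
    intro i
    have h := ContDiff.iterate_deriv' 3 1 (f := f i) (by exact_mod_cast hf i)
    simpa using h
  have hf2 : ∀ i, Differentiable ℝ (deriv (f i)) := fun i => (hf3 i).differentiable (by norm_num)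
  -- the Hessian is diagonal with positive entries
  have hH : ∀ x, H28_hess (fun y : Fin n → ℝ => ∑ i, f i (y i)) x
      = diagonal (fun i => deriv (deriv (f i)) (x i)) := fun x => H28_hess_sep f hf1 hf2 x
  have dpos : ∀ i t, 0 < deriv (deriv (f i)) t := by
    intro i t
    have h := hpd (Function.update 0 i t)
    rw [hH] at h
    have h2 := posDef_diagonal_iff.mp h i
    simpa using h2
  -- the one-variable factors of w
  have hh2 : ∀ i, ContDiff ℝ 2
      (fun t => deriv (deriv (f i)) t ^ a) :=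
    fun i => (hd2 i).rpow_const_of_ne (fun t => (dpos i t).ne')
  obtain ⟨h, hdef⟩ : ∃ h : Fin n → ℝ → ℝ,
      h = fun i t => deriv (deriv (f i)) t ^ a := ⟨_, rfl⟩
  have hh2' : ∀ i, ContDiff ℝ 2 (h i) := by
    intro i
    rw [hdef]
    exact hh2 i
  have hhd : ∀ i, Differentiable ℝ (h i) := fun i => (hh2' i).differentiable (by norm_num)
  have hh1 : ∀ i, ContDiff ℝ 1 (deriv (h i)) := by
    intro i
    have h' := ContDiff.iterate_deriv' 1 1 (f := h i) (by exact_mod_cast hh2' i)
    simpa using h'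
  have hhd' : ∀ i, Differentiable ℝ (deriv (h i)) :=
    fun i => (hh1 i).differentiable (by norm_num)
  have hpos : ∀ i t, 0 < h i t := by
    intro i t
    rw [hdef]
    exact Real.rpow_pos_of_pos (dpos i t) _
  have hW : H28_wexp a (fun y : Fin n → ℝ => ∑ i, f i (y i)) = fun y => ∏ i, h i (y i) := by
    funext y
    unfold H28_wexp
    rw [hH, det_diagonal, hdef, Real.finsetProd_rpow _ _ (fun i _ => (dpos i (y i)).le)]
  -- the equation, rewritten
  have hU : ∀ x (i j : Fin n),
      ((H28_hess (fun y : Fin n → ℝ => ∑ i, f i (y i)) x).det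
        • (H28_hess (fun y : Fin n → ℝ => ∑ i, f i (y i)) x)⁻¹) i j
      = if i = j then (∏ k, deriv (deriv (f k)) (x k)) * (deriv (deriv (f i)) (x i))⁻¹ else 0 := by
    intro x i j
    have hinv : (diagonal (fun i => deriv (deriv (f i)) (x i)))⁻¹
        = diagonal (fun i => (deriv (deriv (f i)) (x i))⁻¹) := by
      apply inv_eq_right_inv
      rw [diagonal_mul_diagonal]
      have : (fun i => deriv (deriv (f i)) (x i) * (deriv (deriv (f i)) (x i))⁻¹)
          = fun _ => (1 : ℝ) := by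
        funext i
        exact mul_inv_cancel₀ (dpos i (x i)).ne'
      rw [this, diagonal_one]
    rw [hH, hinv, det_diagonal, Matrix.smul_apply, diagonal_apply]
    split_ifs <;> simp
  have hsum : ∀ x : Fin n → ℝ,
      ∑ i, deriv (deriv (h i)) (x i) / (deriv (deriv (f i)) (x i) * h i (x i)) = 0 := by
    intro x
    have h0 := hAM x
    unfold H28_AMexp at h0
    rw [hW] at h0
    have e1 : ∀ i, ∑ j, ((H28_hess (fun y : Fin n → ℝ => ∑ i, f i (y i)) x).det
        • (H28_hess (fun y : Fin n → ℝ => ∑ i, f i (y i)) x)⁻¹) i j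
          * H28_hess (fun y : Fin n → ℝ => ∏ i, h i (y i)) x i j
        = ((∏ k, deriv (deriv (f k)) (x k)) * ∏ k, h k (x k))
          * (deriv (deriv (h i)) (x i) / (deriv (deriv (f i)) (x i) * h i (x i))) := by
      intro i
      rw [Finset.sum_eq_single i]
      · rw [hU x i i, if_pos rfl, H28_hess_prod_diag h hhd hhd' x i,
          ← Finset.mul_prod_erase univ (fun k => h k (x k)) (mem_univ i)]
        have hp1 := (dpos i (x i)).ne'
        have hp2 := (hpos i (x i)).ne'
        field_simp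
      · intro j _ hji
        rw [hU x i j, if_neg (Ne.symm hji), zero_mul]
      · intro hi
        exact absurd (mem_univ i) hi
    rw [Finset.sum_congr rfl (fun i _ => e1 i), ← Finset.mul_sum] at h0
    have hP : 0 < (∏ k, deriv (deriv (f k)) (x k)) * ∏ k, h k (x k) :=
      mul_pos (Finset.prod_pos (fun k _ => dpos k (x k))) (Finset.prod_pos (fun k _ => hpos k (x k)))
    rcases mul_eq_zero.mp h0 with h1 | h1
    · exact absurd h1 hP.ne'
    · exact h1
  -- separation of variables
  have hc : ∀ i t, deriv (deriv (h i)) t / (deriv (deriv (f i)) t * h i t)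
      = deriv (deriv (h i)) 0 / (deriv (deriv (f i)) 0 * h i 0) :=
    fun i t => H28_sep_const
      (fun i t => deriv (deriv (h i)) t / (deriv (deriv (f i)) t * h i t)) hsum i t
  obtain ⟨c, hcdef⟩ : ∃ c : Fin n → ℝ,
      c = fun i => deriv (deriv (h i)) 0 / (deriv (deriv (f i)) 0 * h i 0) := ⟨_, rfl⟩
  have hm : ∀ i t, 0 < deriv (deriv (f i)) t * h i t := fun i t => mul_pos (dpos i t) (hpos i t)
  have hode : ∀ i t, deriv (deriv (h i)) t = c i * (deriv (deriv (f i)) t * h i t) := by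
    intro i t
    have := hc i t
    rw [hcdef]
    rw [div_eq_iff (hm i t).ne'] at this
    exact this
  have hcsum : ∑ i, c i = 0 := by
    have := hsum 0
    rw [hcdef]
    simpa using this
  -- a nonpositive constant must vanish
  have hzero : ∀ i, c i ≤ 0 → (∀ t, deriv (h i) t = 0) := by
    intro i hci
    apply H28_deriv_zero_of_pos (h i) (hhd i) (hhd' i) (hpos i)
    intro t
    rw [hode i t]
    exact mul_nonpos_of_nonpos_of_nonneg hci (hm i t).le
  have hczero : ∀ i, c i ≤ 0 → c i = 0 := by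
    intro i hci
    have h1 : deriv (h i) = fun _ => (0 : ℝ) := funext (hzero i hci)
    have h2 : deriv (deriv (h i)) 0 = 0 := by
      rw [h1]
      simp
    rw [hode i 0] at h2
    rcases mul_eq_zero.mp h2 with h3 | h3
    · exact h3
    · exact absurd h3 (hm i 0).ne'
  have hcnonneg : ∀ i, 0 ≤ c i := by
    intro i
    by_contra hneg
    have hlt : c i < 0 := not_le.mp hneg
    have := hczero i hlt.le
    linarith
  have hcall : ∀ i, c i = 0 := by
    intro i
    exact (Finset.sum_eq_zero_iff_of_nonneg (fun i _ => hcnonneg i)).mp hcsum i (mem_univ i)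
  -- conclusion
  intro i
  have hconst : ∀ t, h i t = h i 0 :=
    fun t => is_const_of_deriv_eq_zero (hhd i) (hzero i (hcall i).le) t 0
  have hdconst : ∀ t, deriv (deriv (f i)) t = deriv (deriv (f i)) 0 := by
    intro t
    have h1 := hconst t
    rw [hdef] at h1
    exact Real.rpow_left_injOn hθ (dpos i t).le (dpos i 0).le h1
  refine ⟨deriv (deriv (f i)) 0, dpos i 0, fun t => ?_⟩
  exact H28_quadratic_of_deriv2_const (f i) (hf1 i) (hf2 i) _ hdconst t

theorem H28_separable_main (n : ℕ) (f : Fin n → ℝ → ℝ)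
    (hf : ∀ i, ContDiff ℝ 4 (f i))
    (hpd : ∀ x, (H28_hess (fun y : Fin n → ℝ => ∑ i, f i (y i)) x).PosDef)
    (hAM : ∀ x, H28_AM (fun y : Fin n → ℝ => ∑ i, f i (y i)) x = 0) :
    ∀ i, ∃ a : ℝ, 0 < a ∧ ∀ t, f i t = a / 2 * t ^ 2 + deriv (f i) 0 * t + f i 0 := by
  have hn2 : (0 : ℝ) < (n : ℝ) + 2 := by positivity
  have hθ : -((n : ℝ) + 1) / ((n : ℝ) + 2) ≠ 0 := by
    have : -((n : ℝ) + 1) / ((n : ℝ) + 2) < 0 := div_neg_of_neg_of_pos (by linarith) hn2
    exact this.ne
  exact H28_separable_exp n _ hθ f hf hpd (fun x => by rw [← H28_AM_eq_AMexp]; exact hAM x)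

/-- A separable function of class `C^4` has one-variable summands of class `C^4`. -/
theorem H28_summand_contDiff (n : ℕ) (f : Fin n → ℝ → ℝ)
    (hsmooth : ContDiff ℝ 4 (fun y : Fin n → ℝ => ∑ i, f i (y i))) (i : Fin n) :
    ContDiff ℝ 4 (f i) := by
  have h1 : f i = fun t => (∑ k, f k ((Pi.single i t : Fin n → ℝ) k))
      - ∑ k ∈ univ.erase i, f k 0 := by
    funext t
    rw [← Finset.add_sum_erase univ _ (mem_univ i)]
    have e : ∑ k ∈ univ.erase i, f k ((Pi.single i t : Fin n → ℝ) k)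
        = ∑ k ∈ univ.erase i, f k 0 := by
      apply Finset.sum_congr rfl
      intro k hk
      rw [Pi.single_eq_of_ne (Finset.ne_of_mem_erase hk)]
    rw [e]
    simp only [Pi.single_eq_same]
    ring
  rw [h1]
  exact (hsmooth.comp (ContinuousLinearMap.single ℝ (fun _ => ℝ) i).contDiff).sub contDiff_const

/-- A sum of one-variable quadratics is a quadratic polynomial with diagonal matrix. -/
theorem H28_quadratic_assemble (n : ℕ) (f : Fin n → ℝ → ℝ)
    (h : ∀ i, ∃ a : ℝ, 0 < a ∧ ∀ t, f i t = a / 2 * t ^ 2 + deriv (f i) 0 * t + f i 0) :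
    ∃ (A : Matrix (Fin n) (Fin n) ℝ) (b : Fin n → ℝ) (c : ℝ), A.PosDef ∧
      ∀ x : Fin n → ℝ, ∑ i, f i (x i) = 1 / 2 * (x ⬝ᵥ A *ᵥ x) + b ⬝ᵥ x + c := by
  choose a ha hfa using h
  refine ⟨diagonal a, fun i => deriv (f i) 0, ∑ i, f i 0, PosDef.diagonal ha, ?_⟩
  intro x
  simp only [dotProduct, mulVec_diagonal]
  rw [Finset.mul_sum, ← Finset.sum_add_distrib, ← Finset.sum_add_distrib]
  apply Finset.sum_congr rfl
  intro i _
  rw [hfa i (x i)]
  ring

/-- The Hessian of the standard paraboloid `∑ y_i² / 2` is the identity matrix. -/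
theorem H28_hess_paraboloid (n : ℕ) (x : Fin n → ℝ) :
    H28_hess (fun y : Fin n → ℝ => ∑ i, y i ^ 2 / 2) x = 1 := by
  have hd : deriv (fun t : ℝ => t ^ 2 / 2) = fun t => t := by
    funext t
    have h : HasDerivAt (fun t : ℝ => t ^ 2 / 2) (((2 : ℕ) : ℝ) * t ^ (2 - 1) * 1 / 2) t :=
      ((hasDerivAt_id t).pow 2).div_const 2
    rw [h.deriv]
    norm_num
  have h1 : ∀ i : Fin n, Differentiable ℝ ((fun _ t => t ^ 2 / 2 : Fin n → ℝ → ℝ) i) := by
    intro i
    fun_prop
  have h2 : ∀ i : Fin n, Differentiable ℝ (deriv ((fun _ t => t ^ 2 / 2 : Fin n → ℝ → ℝ) i)) := by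
    intro i
    rw [hd]
    fun_prop
  have h3 := H28_hess_sep (fun _ t => t ^ 2 / 2 : Fin n → ℝ → ℝ) h1 h2 x
  rw [h3]
  simp only [hd]
  have : (fun i : Fin n => deriv (fun t : ℝ => t) (x i)) = fun _ => (1 : ℝ) := by
    funext i
    simp
  rw [this, diagonal_one]

/-- The Hessian of a constant function vanishes. -/
theorem H28_hess_const (n : ℕ) (c : ℝ) (x : Fin n → ℝ) :
    H28_hess (fun _ : Fin n → ℝ => c) x = 0 := by
  ext i j
  have h1 : H28_pd i (fun _ : Fin n → ℝ => c) = fun _ => 0 := by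
    funext y
    simp [H28_pd]
  simp only [H28_hess, of_apply, h1]
  simp [H28_pd]

/-- The standard paraboloid solves every equation of the family. -/
theorem H28_AMexp_paraboloid (n : ℕ) (a : ℝ) (x : Fin n → ℝ) :
    H28_AMexp a (fun y : Fin n → ℝ => ∑ i, y i ^ 2 / 2) x = 0 := by
  have hw : H28_wexp a (fun y : Fin n → ℝ => ∑ i, y i ^ 2 / 2) = fun _ => 1 := by
    funext y
    simp [H28_wexp, H28_hess_paraboloid]
  unfold H28_AMexp
  rw [hw, H28_hess_const]
  simp

theorem H28_contDiff_paraboloid (n : ℕ) :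
    ContDiff ℝ 4 (fun y : Fin n → ℝ => ∑ i, y i ^ 2 / 2) := by
  fun_prop

end Vale.Agent.Lib.P252.H28
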